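import Vale.Agent.P111.Main

namespace Vale.Agent.Results.P111.A_full

open Vale.Agent.P111

universe u

/-- The cotype-cotype conjecture: a real Banach space `X` with the bounded approximation property
(or merely the approximation property) such that `X` has cotype `q` and `X*` has cotype `r` for
some finite `q, r ≥ 2` is `K`-convex. -/
theorem result (X : Type u) [NormedAddCommGroup X] [NormedSpace ℝ X] [CompleteSpace X]
    (hAP : HasBAP X ∨ HasAP X) (q r : ℝ) (hq : 2 ≤ q) (hr : 2 ≤ r) (hX : HasCotype X q)
    (hX' : HasCotype (StrongDual ℝ X) r) : KConvex X :=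
  kConvex_of_AP (hAP.elim HasBAP.hasAP id) hq hr hX hX'

end Vale.Agent.Results.P111.A_full
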